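import Mathlib
import Vale.Agent.Lib.P116.Defs
import Vale.Agent.Lib.P116.Dust

namespace Vale.Agent.Results.P116.DustRemoval

open Vale.Agent.Lib.P116

/-- The class of domains satisfying Koebe's conjecture is closed under removing totally
disconnected sets: if `V` is conformally equivalent to a circle domain and `G ⊆ V` is a domain
such that `V \ G` is totally disconnected, then `G` is conformally equivalent to a circle
domain. -/
theorem result (G V : Set Sphere) (hG : IsDomain G) (hGV : G ⊆ V)
    (htd : IsTotallyDisconnected (V \ G)) (hV : Uniformizable V) : Uniformizable G :=
  uniformizable_of_dust hG hGV htd hV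

end Vale.Agent.Results.P116.DustRemoval
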