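import Vale.Agent.Results.P116.DenseReduction
import Vale.Agent.Results.P116.DustRemoval

namespace Vale.Agent.Results.P116.A_Combined

open Vale.Agent.Lib.P116

/-- Two results on Koebe's conjecture in one statement.
(1) Permanence: if `V` is conformally equivalent to a circle domain and `G ⊆ V` is a domain such
that `V \ G` is totally disconnected, then `G` is conformally equivalent to a circle domain.
(2) Reduction: for a domain `G` let `N` be the closure of the union of the nondegenerate components
of the complement of `G`; the complement of `N` is a domain containing `G`, the nondegenerate
components of `N` are dense in `N`, and if the complement of `N` is conformally equivalent to a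
circle domain then so is `G`; hence the conjecture holds for all domains if and only if it holds
for the domains whose nondegenerate complementary components are dense in the complement. -/
theorem result :
    (∀ G V : Set Sphere, IsDomain G → G ⊆ V → IsTotallyDisconnected (V \ G) →
      Uniformizable V → Uniformizable G) ∧
    (∀ G : Set Sphere, IsDomain G →
      IsDomain (closure (nondeg G))ᶜ ∧ G ⊆ (closure (nondeg G))ᶜ ∧
      closure (nondeg (closure (nondeg G))ᶜ) = ((closure (nondeg G))ᶜ)ᶜ ∧
      (Uniformizable (closure (nondeg G))ᶜ → Uniformizable G)) ∧
    ((∀ G : Set Sphere, IsDomain G → Uniformizable G) ↔
      (∀ G : Set Sphere, IsDomain G → closure (nondeg G) = Gᶜ → Uniformizable G)) :=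
  ⟨DustRemoval.result, DenseReduction.result⟩

end Vale.Agent.Results.P116.A_Combined
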