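import Mathlib
import Vale.Agent.Lib.P116.Defs
import Vale.Agent.Lib.P116.Dust

namespace Vale.Agent.Results.P116.DenseReduction

open Vale.Agent.Lib.P116

/-- Reduction of Koebe's conjecture to domains whose nondegenerate complementary components are
dense in the complement. For a domain `G` let `N` be the closure of the union of the
nondegenerate components of the complement of `G`. Then the complement of `N` is a domain
containing `G`, the nondegenerate components of `N` are dense in `N`, and if the complement of
`N` is conformally equivalent to a circle domain then so is `G`. Hence the conjecture holds for
all domains if and only if it holds for the domains whose nondegenerate complementary components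
are dense in the complement. -/
theorem result :
    (∀ G : Set Sphere, IsDomain G →
      IsDomain (closure (nondeg G))ᶜ ∧ G ⊆ (closure (nondeg G))ᶜ ∧
      closure (nondeg (closure (nondeg G))ᶜ) = ((closure (nondeg G))ᶜ)ᶜ ∧
      (Uniformizable (closure (nondeg G))ᶜ → Uniformizable G)) ∧
    ((∀ G : Set Sphere, IsDomain G → Uniformizable G) ↔
      (∀ G : Set Sphere, IsDomain G → closure (nondeg G) = Gᶜ → Uniformizable G)) := by
  refine ⟨fun G hG => ⟨isDomain_core_compl hG, subset_core_compl hG.1, closure_nondeg_core G,
    uniformizable_of_core hG⟩, fun h G hG _ => h G hG, fun h G hG => ?_⟩
  exact uniformizable_of_core hG (h _ (isDomain_core_compl hG) (closure_nondeg_core G))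

end Vale.Agent.Results.P116.DenseReduction
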